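import Vale.Agent.P329.H366.Defs

/-!
# `RA`: additivity, dependence on types only, descent, base link
-/

namespace Vale.Agent.P329.H842

open Filter
open Vale.Agent.P329.H817 (TL RR Near TL_add)
open Vale.Agent.P329.H366

variable {α : Type} {p : ℕ} {Cap A A' : (List α → ZMod p) → Prop}

theorem ind_mem {S : Set (List α)} {v : List α} (h : v ∈ S) : ind p S v = 1 := by
  simp [ind, h]

theorem ind_not_mem {S : Set (List α)} {v : List α} (h : v ∉ S) : ind p S v = 0 := by
  simp [ind, h]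

theorem ind_inter (hA : Alg0 A) {S T : Set (List α)} (hS : A (ind p S)) (hT : A (ind p T)) :
    A (ind p (S ∩ T)) := by
  have h := hA.bin (fun a b => a * b) _ _ hS hT
  have h1 : (fun v => ind p S v * ind p T v) = ind p (S ∩ T) := by
    funext v
    by_cases h1 : v ∈ S <;> by_cases h2 : v ∈ T <;> simp [ind, h1, h2]
  rwa [h1] at h

theorem ind_compl (hA : Alg0 A) {S : Set (List α)} (hS : A (ind p S)) : A (ind p Sᶜ) := by
  have h := hA.bin (fun a _ => 1 - a) _ _ hS hS
  have h1 : (fun v => 1 - ind p S v) = ind p Sᶜ := by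
    funext v
    by_cases h1 : v ∈ S <;> simp [ind, h1]
  rwa [h1] at h

theorem ind_univ (hA : Alg0 A) : A (ind p (Set.univ : Set (List α))) := by
  have h := hA.const 1
  have h1 : (fun _ : List α => (1 : ZMod p)) = ind p Set.univ := by
    funext v
    simp [ind]
  rwa [h1] at h

/-- level sets -/
theorem ind_lev (hA : Alg0 A) {f : List α → ZMod p} (hf : A f) (t : ZMod p) :
    A (ind p {v | f v = t}) := by
  classical
  have h := hA.bin (fun a _ => if a = t then 1 else 0) _ _ hf hf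
  have h1 : (fun v => if f v = t then (1 : ZMod p) else 0) = ind p {v | f v = t} := by
    funext v
    by_cases h1 : f v = t <;> simp [ind, h1]
  rwa [h1] at h

/-- the filter of the `A`-type of `P` -/
def AF (hA : Alg0 A) (P : Ultrafilter (List α)) : Filter (List α) where
  sets := {T | ∃ V ∈ P, A (ind p V) ∧ V ⊆ T}
  univ_sets := ⟨Set.univ, Filter.univ_mem, ind_univ hA, fun _ h => h⟩
  sets_of_superset := by
    rintro S T ⟨V, h1, h2, h3⟩ h4
    exact ⟨V, h1, h2, h3.trans h4⟩
  inter_sets := by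
    rintro S T ⟨V, h1, h2, h3⟩ ⟨W, h4, h5, h6⟩
    exact ⟨V ∩ W, Filter.inter_mem h1 h4, ind_inter hA h2 h5, Set.inter_subset_inter h3 h6⟩

theorem mem_AF {hA : Alg0 A} {P : Ultrafilter (List α)} {T : Set (List α)} :
    T ∈ AF hA P ↔ ∃ V ∈ P, A (ind p V) ∧ V ⊆ T := Iff.rfl

theorem Eqv.refl (P : Ultrafilter (List α)) : Eqv A P P := fun _ _ => Iff.rfl

theorem Eqv.of_imp (hA : Alg0 A) {P Q : Ultrafilter (List α)}
    (h : ∀ S : Set (List α), A (ind p S) → S ∈ P → S ∈ Q) : Eqv A P Q := by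
  intro S hS
  refine ⟨h S hS, fun h1 => ?_⟩
  by_contra h2
  have h3 := h Sᶜ (ind_compl hA hS) (Ultrafilter.compl_mem_iff_notMem.2 h2)
  exact (Ultrafilter.compl_mem_iff_notMem.1 h3) h1

/-- either the level `t` of `X` is represented in the `A`-type of `P`, or it is excluded by a set -/
theorem rep_or (hA : Alg0 A) (P : Ultrafilter (List α)) (X : List α → ZMod p) (t : ZMod p) :
    (∃ P' : Ultrafilter (List α), Eqv A P P' ∧ ∀ᶠ v in (P' : Filter (List α)), X v = t) ∨
    (∃ V ∈ P, A (ind p V) ∧ ∀ v ∈ V, X v ≠ t) := by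
  by_cases h : ∃ V ∈ P, A (ind p V) ∧ ∀ v ∈ V, X v ≠ t
  · exact Or.inr h
  · left
    have hne : (AF hA P ⊓ 𝓟 {v | X v = t}).NeBot := by
      rw [Filter.inf_principal_neBot_iff]
      rintro U ⟨V, h1, h2, h3⟩
      by_contra h4
      apply h
      refine ⟨V, h1, h2, fun v hv hX => h4 ⟨v, h3 hv, hX⟩⟩
    refine ⟨Ultrafilter.of (AF hA P ⊓ 𝓟 {v | X v = t}), ?_, ?_⟩
    · apply Eqv.of_imp hA
      intro S hS hSP
      exact Ultrafilter.of_le _ (Filter.mem_inf_of_left ⟨S, hSP, hS, fun _ h => h⟩)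
    · exact Ultrafilter.of_le _ (Filter.mem_inf_of_right (Filter.mem_principal_self _))

/-- a function with values in `ZMod p` is eventually constant along an ultrafilter -/
theorem ev_const [Fact p.Prime] (P : Ultrafilter (List α)) (X : List α → ZMod p) :
    ∃ t, ∀ᶠ v in (P : Filter (List α)), X v = t := by
  obtain ⟨t, ht⟩ := Ultrafilter.eq_pure_of_finite (P.map X)
  refine ⟨t, ?_⟩
  have h1 : ({t} : Set (ZMod p)) ∈ P.map X := by
    rw [ht]
    simp
  exact h1

theorem RA.congr : ∀ {Ps Ps' : List (Ultrafilter (List α))} {G : List α → ZMod p},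
    List.Forall₂ (Eqv A) Ps Ps' → RA Cap A Ps G → RA Cap A Ps' G := by
  intro Ps Ps' G h
  induction h generalizing G with
  | nil => exact id
  | cons h1 _ ih =>
    rintro ⟨S, h2, h3, h4⟩
    exact ⟨S, (h1 S h3).1 h2, h3, fun k hk hs => ih (h4 k hk hs)⟩

theorem RA.add (hadd : ∀ F G, Cap F → Cap G → Cap fun X => F X + G X) (hA : Alg0 A) :
    ∀ {Ps : List (Ultrafilter (List α))} {F G : List α → ZMod p},
      RA Cap A Ps F → RA Cap A Ps G → RA Cap A Ps fun X => F X + G X
  | [], F, G, hF, hG => hadd F G hF hG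
  | P :: Ps, F, G, ⟨S, h1, h2, h3⟩, ⟨T, h4, h5, h6⟩ => by
    refine ⟨S ∩ T, Filter.inter_mem h1 h4, ind_inter hA h2 h5, fun k hk hs => ?_⟩
    rw [TL_add]
    exact RA.add hadd hA (h3 k hk fun v hv => (hs v hv).1) (h6 k hk fun v hv => (hs v hv).2)

theorem RA.sum (hadd : ∀ F G, Cap F → Cap G → Cap fun X => F X + G X) (hA : Alg0 A)
    {Ps : List (Ultrafilter (List α))} {ι : Type} (s : Finset ι) (F : ι → List α → ZMod p)
    (h0 : RA Cap A Ps fun _ => 0) (h : ∀ i ∈ s, RA Cap A Ps (F i)) :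
    RA Cap A Ps fun X => ∑ i ∈ s, F i X := by
  classical
  induction s using Finset.induction_on with
  | empty => simpa using h0
  | insert i s hi ih =>
    have h1 : (fun X => ∑ j ∈ insert i s, F j X) = fun X => F i X + ∑ j ∈ s, F j X := by
      funext X
      rw [Finset.sum_insert hi]
    rw [h1]
    exact RA.add hadd hA (h i (Finset.mem_insert_self _ _))
      (ih fun j hj => h j (Finset.mem_insert_of_mem hj))

/-- finitely many types over each type -/
theorem reps [Fact p.Prime] (X : List α → ZMod p) :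
    ∀ (Ps : List (Ultrafilter (List α))),
    (∀ P ∈ Ps, ∀ P' : Ultrafilter (List α), Eqv A P P' → ∀ t,
      (∀ᶠ v in (P' : Filter (List α)), X v = t) → ∀ S : Set (List α), A' (ind p S) → S ∈ P' →
      ∃ V, A (ind p V) ∧ V ∈ P' ∧ ∀ v ∈ V, X v = t → v ∈ S) → Alg0 A' →
    ∃ R : Set (List (Ultrafilter (List α))), R.Finite ∧
      (∀ Qs ∈ R, List.Forall₂ (Eqv A) Ps Qs) ∧
      ∀ Qs, List.Forall₂ (Eqv A) Ps Qs → ∃ Qs' ∈ R, List.Forall₂ (Eqv A') Qs' Qs
  | [], _, _ => by
    refine ⟨{[]}, Set.finite_singleton _, ?_, ?_⟩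
    · intro Qs hQ
      rw [Set.mem_singleton_iff.1 hQ]
      exact List.Forall₂.nil
    · intro Qs hQ
      cases hQ
      exact ⟨[], rfl, List.Forall₂.nil⟩
  | P :: Ps, hloc, hA' => by
    classical
    obtain ⟨R, hR1, hR2, hR3⟩ := reps X Ps (fun Q hQ => hloc Q (List.mem_cons_of_mem _ hQ)) hA'
    let E : ZMod p → Prop := fun t => ∃ P' : Ultrafilter (List α), Eqv A P P' ∧
      ∀ᶠ v in (P' : Filter (List α)), X v = t
    let c : ZMod p → Ultrafilter (List α) := fun t => if h : E t then h.choose else P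
    have hc : ∀ t, E t → Eqv A P (c t) ∧ ∀ᶠ v in (c t : Filter (List α)), X v = t := by
      intro t ht
      have h1 : c t = ht.choose := by simp only [c, dif_pos ht]
      rw [h1]
      exact ht.choose_spec
    refine ⟨Set.image2 (fun t Qs => c t :: Qs) {t | E t} R, ?_, ?_, ?_⟩
    · exact Set.Finite.image2 _ (Set.toFinite _) hR1
    · rintro _ ⟨t, ht, Qs, hQ, rfl⟩
      exact List.Forall₂.cons (hc t ht).1 (hR2 Qs hQ)
    · intro Qs hQ
      cases hQ with
      | @cons _ Q _ Qs h1 h2 =>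
        obtain ⟨Qs', h3, h4⟩ := hR3 Qs h2
        obtain ⟨t, ht⟩ := ev_const Q X
        have hE : E t := ⟨Q, h1, ht⟩
        refine ⟨c t :: Qs', ⟨t, hE, Qs', h3, rfl⟩, List.Forall₂.cons ?_ h4⟩
        apply Eqv.of_imp hA'
        intro S hS hSc
        obtain ⟨V, hV1, hV2, hV3⟩ := hloc P List.mem_cons_self (c t) (hc t hE).1 t (hc t hE).2 S hS hSc
        have hVP : V ∈ P := ((hc t hE).1 V hV1).2 hV2
        have hVQ : V ∈ Q := (h1 V hV1).1 hVP
        filter_upwards [hVQ, ht] with v hv hXv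
        exact hV3 v hv hXv

theorem RA.descent [Fact p.Prime] (hadd : ∀ F G, Cap F → Cap G → Cap fun X => F X + G X)
    (hA : Alg0 A) (hA' : Alg0 A') (hAA' : ∀ f, A f → A' f) (X : List α → ZMod p) (hX : A' X) :
    ∀ (Ps : List (Ultrafilter (List α)))
    (_ : ∀ P ∈ Ps, ∀ P' : Ultrafilter (List α), Eqv A P P' → ∀ t,
      (∀ᶠ v in (P' : Filter (List α)), X v = t) → ∀ S : Set (List α), A' (ind p S) → S ∈ P' →
      ∃ V, A (ind p V) ∧ V ∈ P' ∧ ∀ v ∈ V, X v = t → v ∈ S) (G : List α → ZMod p)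
    (_ : ∀ Ps', List.Forall₂ (Eqv A) Ps Ps' → RA Cap A' Ps' G), RA Cap A Ps G
  | [], _, G, h => h [] List.Forall₂.nil
  | P :: Ps, hloc, G, h => by
    classical
    have hloc' := fun Q hQ => hloc Q (List.mem_cons_of_mem _ hQ)
    obtain ⟨R, hR1, hR2, hR3⟩ := reps (A := A) (A' := A') X Ps hloc' hA'
    have hzero : ∀ G : List α → ZMod p, TL (fun _ => 0) G = fun _ => 0 :=
      Vale.Agent.P329.H817.TL_zero_left
    have h0 : ∀ Qs, List.Forall₂ (Eqv A) Ps Qs → RA Cap A' Qs fun _ => 0 := by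
      intro Qs hQ
      obtain ⟨S, _, _, h3⟩ := h (P :: Qs) (List.Forall₂.cons (Eqv.refl P) hQ)
      have h4 := h3 (fun _ => 0) (hA'.const 0) (fun v hv => (hv rfl).elim)
      rwa [hzero] at h4
    -- one level, one representative
    have h1 : ∀ t, ∀ Qs ∈ R, ∃ T ∈ AF hA P, ∀ k : List α → ZMod p, A' k →
        (∀ v, k v ≠ 0 → v ∈ T ∧ X v = t) → RA Cap A' Qs (TL k G) := by
      intro t Qs hQ
      rcases rep_or hA P X t with ⟨P', h1, h2⟩ | ⟨V, h1, h2, h3⟩
      · obtain ⟨S, h3, h4, h5⟩ := h (P' :: Qs) (List.Forall₂.cons h1 (hR2 Qs hQ))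
        obtain ⟨V, h6, h7, h8⟩ := hloc P List.mem_cons_self P' h1 t h2 S h4 h3
        refine ⟨V, ⟨V, (h1 V h6).2 h7, h6, fun _ h => h⟩, fun k hk hs => h5 k hk fun v hv => ?_⟩
        exact h8 v (hs v hv).1 (hs v hv).2
      · refine ⟨V, ⟨V, h1, h2, fun _ h => h⟩, fun k hk hs => ?_⟩
        have h4 : k = fun _ => 0 := by
          funext v
          by_contra hv
          exact h3 v (hs v hv).1 (hs v hv).2
        rw [h4, hzero]
        exact h0 Qs (hR2 Qs hQ)
    choose! T hT1 hT2 using h1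
    have h2 : (⋂ t, ⋂ Qs ∈ R, T t Qs) ∈ AF hA P := by
      rw [Filter.iInter_mem]
      intro t
      rw [Filter.biInter_mem hR1]
      intro Qs hQ
      exact hT1 t Qs hQ
    obtain ⟨V, hV1, hV2, hV3⟩ := h2
    refine ⟨V, hV1, hV2, fun k hk hs => ?_⟩
    apply RA.descent hadd hA hA' hAA' X hX Ps hloc'
    intro Qs hQ
    obtain ⟨Qs', h3, h4⟩ := hR3 Qs hQ
    refine RA.congr h4 ?_
    have h5 : k = fun v => ∑ t : ZMod p, if X v = t then k v else 0 := by
      funext v
      simp
    rw [h5, Vale.Agent.P329.H817.TL_sum_left]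
    refine RA.sum hadd hA' _ _ (h0 Qs' (hR2 Qs' h3)) fun t _ => ?_
    refine hT2 t Qs' h3 _ ?_ ?_
    · exact hA'.bin (fun a b => if a = t then b else 0) X k hX (hAA' k hk)
    · intro v hv
      by_cases h6 : X v = t
      · rw [if_pos h6] at hv
        have h7 := hV3 (hs v hv)
        rw [Set.mem_iInter] at h7
        have h8 := h7 t
        rw [Set.mem_iInter₂] at h8
        exact ⟨h8 Qs' h3, h6⟩
      · rw [if_neg h6] at hv
        exact (hv rfl).elim

/-! ### base link -/

theorem exists_near (x : ℕ → α) :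
    ∃ P : Ultrafilter (List α), ∀ J, ∀ᶠ v in (P : Filter (List α)), Near x J v := by
  refine ⟨Ultrafilter.of (Filter.map (fun J => (List.range J).map x) atTop), fun J => ?_⟩
  refine Ultrafilter.of_le _ ?_
  show ∀ᶠ v in Filter.map (fun J => (List.range J).map x) atTop, Near x J v
  rw [Filter.eventually_map]
  filter_upwards [Filter.eventually_ge_atTop J] with i hi
  refine ⟨by simpa using hi, fun j hj => ?_⟩
  rw [List.getElem?_map, List.getElem?_range (by omega)]
  rfl

/-- sets of the base class near a text contain a window -/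
theorem base_window (Y : Sys α p Cap) [Fact p.Prime] {D0 : Y.Code}
    (hw : ∀ v, Y.w D0 v = if v = [] then 0 else 1) (x : ℕ → α) (P : Ultrafilter (List α))
    (hP : ∀ J, ∀ᶠ v in (P : Filter (List α)), Near x J v) (S : Set (List α))
    (hS : Y.A D0 (ind p S)) (hSP : S ∈ P) : ∃ J, ∀ v, Near x J v → v ∈ S := by
  classical
  obtain ⟨n, hn⟩ := Y.loc D0 _ hS
  refine ⟨n, fun v hv => ?_⟩
  obtain ⟨v', h1, h2⟩ := (((hP n).and hSP).exists)
  have key : ∀ u : List α, Near x n u → ∀ i < n, Y.w D0 (u.drop i) ≠ 0 := by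
    intro u hu i hi
    rw [hw, if_neg]
    · exact one_ne_zero
    · intro h
      have := List.drop_eq_nil_iff.1 h
      have := hu.1
      omega
  have htake : v.take n = v'.take n := by
    apply List.ext_getElem?
    intro i
    rcases Nat.lt_or_ge i n with h | h
    · rw [List.getElem?_take_of_lt h, List.getElem?_take_of_lt h, hv.2 i h, h1.2 i h]
    · rw [List.getElem?_eq_none (by simp; omega), List.getElem?_eq_none (by simp; omega)]
  have h3 := hn n v v' htake (fun i hi => ⟨fun h => (key v hv i hi h).elim,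
    fun h => (key v' h1 i hi h).elim⟩) (by
      rw [Finset.filter_true_of_mem]
      · simp
      · intro i hi
        exact key v hv i (Finset.mem_range.1 hi))
  by_contra h4
  rw [ind_not_mem h4, ind_mem h2] at h3
  exact zero_ne_one h3

theorem base_link (Y : Sys α p Cap) [Fact p.Prime] {D0 : Y.Code}
    (hw : ∀ v, Y.w D0 v = if v = [] then 0 else 1) {K : (List α → ZMod p) → Prop}
    (hK : ∀ k, K k → Y.A D0 k) (xs : List (ℕ → α)) (G : List α → ZMod p)
    (h : ∀ Ps : List (Ultrafilter (List α)),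
      List.Forall₂ (fun (x : ℕ → α) (P : Ultrafilter (List α)) => ∀ J, ∀ᶠ v in (P : Filter (List α)), Near x J v) xs Ps →
      RA Cap (Y.A D0) Ps G) : RR Cap K xs G := by
  choose P hP using exists_near (α := α)
  have h1 : RA Cap (Y.A D0) (xs.map P) G := by
    apply h
    clear h
    induction xs with
    | nil => exact List.Forall₂.nil
    | cons x xs ih => exact List.Forall₂.cons (hP x) ih
  clear h
  induction xs generalizing G with
  | nil => exact h1
  | cons x xs ih =>
    obtain ⟨S, h2, h3, h4⟩ := h1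
    obtain ⟨J, hJ⟩ := base_window Y hw x (P x) (hP x) S h3 h2
    exact ⟨J, fun k hk hs => ih _ (h4 k (hK k hk) fun v hv => hJ v (hs v hv))⟩

end Vale.Agent.P329.H842
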