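import Vale.Agent.P329.H842.Inst
import Vale.Agent.P329.H817.CompInst

/-!
# From the core over `H366.Sys` to all chains of weights with finite memory
-/

namespace Vale.Agent.P329.H842

open H962
open Filter

variable {α : Type} {p : ℕ}

/-- the base code -/
def base [Fact p.Prime] (hF6 : RowF6) : {w : List α → ZMod p // Stg w} := ⟨w0, (hF6 α p).1⟩

/-- **the end of the second copy**: it is enough to prove the core near ultrafilters of long words
over the base code -/
theorem core_of_RA [Finite α] [Fact p.Prime] (hA : RowA) (hB1 : RowB1) (hB2 : RowB2)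
    (hB3 : RowB3) (hC : RowC) (hD1 : RowD1) (hD3 : RowD3) (hE : RowE) (hF6 : RowF6)
    (h : ∀ Ps : List (Ultrafilter (List α)),
      (∀ P ∈ Ps, ∀ J, ∀ᶠ v in (P : Filter (List α)), J ≤ v.length) →
      ∀ g : List α → ZMod p, Lc (w0 (α := α) (p := p)) g →
      H366.RA (Cap (α := α) (p := p)) ((sys (α := α) (p := p) hA hB1 hB2 hB3 hC hD1 hD3 hE).A
        (base hF6)) Ps (H366.NN g)) (c : ℕ) : H320.Core p α c := by
  refine H817.core_of_texts' (fun k hk xs => ?_) c
  have hK : ∀ k : List α → ZMod p, H817.Kl k → Lc (w0 (α := α) (p := p)) k := by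
    rintro k ⟨c, hc⟩
    refine Eq.mp (congrArg (Lc (w0 (α := α) (p := p))) ?_) (H483.Lc.comp (H483.Lc.take (w := w0 (α := α) (p := p)) c) k)
    funext X
    exact hc _ _ (by rw [List.take_take, min_self])
  refine base_link (Cap := Cap) (sys (α := α) (p := p) hA hB1 hB2 hB3 hC hD1 hD3 hE)
    (D0 := base hF6) (fun v => rfl) (K := H817.Kl) (fun k hk => hK k hk) xs _ fun Ps hPs => ?_
  refine h Ps ?_ k (hK k hk)
  clear h
  induction hPs with
  | nil => intro P hP; simp at hP
  | @cons x P xs Ps h1 _ ih =>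
    intro Q hQ J
    rcases List.mem_cons.1 hQ with rfl | hQ
    · exact (h1 J).mono fun v hv => hv.1
    · exact ih Q hQ J

end Vale.Agent.P329.H842
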