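import Vale.Agent.P329.H842.RA
import Vale.Agent.P329.H962.Rows
import Vale.Agent.P329.H483.RowC

/-!
# The local functions of stages form a system in the sense of `H366.Sys`
-/

namespace Vale.Agent.P329.H842

open H259 (pw pw_zero pw_succ pw_one pw_add pw_succ' pw_mul pw_length)
open H962

variable {α : Type} {p : ℕ}

/-! ### value at the last cut -/

/-- value of `f` at the last cut of `w` -/
def tl (w f : List α → ZMod p) : List α → ZMod p
  | [] => 0
  | a :: X => if w (a :: X) = 0 then tl w f X else f (a :: X)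

theorem tl_unc {w f : List α → ZMod p} {X : List α} : ∀ {V : List α}, Unc w V X →
    tl w f (V ++ X) = tl w f X
  | [], _ => rfl
  | a :: V, h => by
    have h1 : w (a :: (V ++ X)) = 0 := h (a :: V) List.suffix_rfl (List.cons_ne_nil _ _)
    rw [List.cons_append, tl, if_pos h1]
    exact tl_unc fun B hB hne => h B (hB.trans (List.suffix_cons _ _)) hne

theorem unc_next {w : List α → ZMod p} {v X : List α} {n n0 : ℕ} (h0 : n0 + 1 ≤ n)
    (hw : ∀ n, n0 ≤ n → ∀ X Y, Unc w (pw v n) X →
      w (Y ++ (pw v n ++ X)) = w (Y ++ (pw v (n + 1) ++ X)))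
    (h : Unc w (pw v n) X) : Unc w (pw v (n + 1)) X := by
  obtain ⟨m, rfl⟩ : ∃ m, n = m + 1 := ⟨n - 1, by omega⟩
  intro B hB hne
  have h1 : Unc w (pw v m) X := fun B hB hne => h B (hB.trans ⟨v, rfl⟩) hne
  rcases List.suffix_or_suffix_of_suffix hB (⟨v, rfl⟩ : pw v (m + 1) <:+ pw v (m + 1 + 1)) with
    hB' | ⟨s, rfl⟩
  · exact h B hB' hne
  · have hs : s <:+ v := by
      rw [pw_succ v (m + 1)] at hB
      exact List.suffix_append_self_iff.1 hB
    by_cases h2 : s = []
    · subst h2
      exact h _ List.suffix_rfl hne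
    · rw [List.append_assoc, ← hw m (by omega) X s h1, ← List.append_assoc]
      refine h _ ?_ (by simp [h2])
      rw [pw_succ]
      exact List.suffix_append_self_iff.2 hs

theorem lc_tl [Fact p.Prime] {w f : List α → ZMod p} (hw : Stg w) (hf : Lc w f) :
    Lc w (tl w f) := by
  obtain ⟨h1, h2, n, h3⟩ := hf
  refine ⟨?_, ?_, max n 1, ?_⟩
  · refine H483.FS_of_key (fun X => (((fun Y : List α => w (Y ++ X)), fun Y : List α => f (Y ++ X)),
      tl w f X)) ((Set.Finite.prod (Set.Finite.prod hw.fs h1)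
        (Set.toFinite (Set.univ : Set (ZMod p)))).subset ?_) ?_
    · rintro _ ⟨X, rfl⟩
      exact ⟨⟨⟨X, rfl⟩, ⟨X, rfl⟩⟩, trivial⟩
    · intro X X' h Y
      simp only [Prod.mk.injEq] at h
      obtain ⟨⟨ha, hb⟩, hc⟩ := h
      induction Y with
      | nil => exact hc
      | cons a Y ih =>
        have h4 : w (a :: (Y ++ X)) = w (a :: (Y ++ X')) := congrFun ha (a :: Y)
        have h5 : f (a :: (Y ++ X)) = f (a :: (Y ++ X')) := congrFun hb (a :: Y)
        rw [List.cons_append, List.cons_append, tl, tl, h4, h5, ih]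
  · intro v
    obtain ⟨n1, hn1⟩ := hw.ap v
    obtain ⟨n2, hn2⟩ := h2 v
    refine ⟨max (n1 + 1) n2, fun m hm X Y hU => ?_⟩
    have hU' : Unc w (pw v (m + 1)) X :=
      unc_next (le_trans (le_max_left _ _) hm) (fun k hk X Y h => hn1 k hk X Y h) hU
    induction Y with
    | nil =>
      rw [List.nil_append, List.nil_append, tl_unc hU, tl_unc hU']
    | cons a Y ih =>
      have h4 := hn1 m (by omega) X (a :: Y) hU
      have h5 := hn2 m (by omega) X (a :: Y) hU
      rw [List.cons_append, List.cons_append] at h4 h5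
      rw [List.cons_append, List.cons_append, tl, tl, h4, h5, ih]
  · intro c c' S hc hc' hm
    induction S with
    | nil => simp [nc] at hm
    | cons a S ih =>
      have h4 := hw.rt c c' (a :: S) hc hc' (List.cons_ne_nil _ _)
      rw [List.cons_append, List.cons_append] at h4
      rw [List.cons_append, List.cons_append, tl, tl, ← h4]
      by_cases h5 : w (a :: (S ++ c)) = 0
      · rw [if_pos h5, if_pos h5]
        rw [nc, if_pos h5, add_zero] at hm
        exact ih hm
      · rw [if_neg h5, if_neg h5]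
        exact h3 c c' (a :: S) hc hc' (le_trans (le_max_left _ _) hm)

/-! ### counting cuts -/

theorem nc_count {w : List α → ZMod p} : ∀ (i : ℕ) (v : List α), i ≤ v.length →
    nc w (v.take i) (v.drop i) = ∑ j ∈ Finset.range i, if w (v.drop j) = 0 then 0 else 1
  | 0, v, _ => by simp [nc]
  | i + 1, [], h => by simp at h
  | i + 1, a :: v, h => by
    rw [Finset.sum_range_succ', List.take_succ_cons, List.drop_succ_cons, nc,
      nc_count i v (by simpa using h), List.take_append_drop]
    simp

theorem loc_aux {w : List α → ZMod p} (hnil : w [] = 0) {f : List α → ZMod p} {n : ℕ}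
    (hf : Mem w n f) (J : ℕ) (v v' : List α) (ht : v.take J = v'.take J)
    (hfl : ∀ i < J, (w (v.drop i) = 0 ↔ w (v'.drop i) = 0))
    (hn : n + 1 ≤ ((Finset.range J).filter fun i => w (v.drop i) ≠ 0).card) : f v = f v' := by
  classical
  have hne : ((Finset.range J).filter fun i => w (v.drop i) ≠ 0).Nonempty := by
    rw [← Finset.card_pos]
    omega
  obtain ⟨i, hi, hmax⟩ := Finset.exists_max_image _ id hne
  rw [Finset.mem_filter, Finset.mem_range] at hi
  have hlen : i ≤ v.length := by
    by_contra h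
    apply hi.2
    rw [List.drop_eq_nil_of_le (by omega), hnil]
  have hcard : ((Finset.range J).filter fun i => w (v.drop i) ≠ 0).card ≤
      (∑ j ∈ Finset.range i, if w (v.drop j) = 0 then 0 else 1) + 1 := by
    have h1 : (Finset.range J).filter (fun i => w (v.drop i) ≠ 0) ⊆
        insert i ((Finset.range i).filter fun i => w (v.drop i) ≠ 0) := by
      intro j hj
      have h2 := hmax j hj
      rw [Finset.mem_filter] at hj
      rw [Finset.mem_insert, Finset.mem_filter, Finset.mem_range]
      simp only [id] at h2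
      rcases eq_or_lt_of_le h2 with h3 | h3
      · exact Or.inl h3
      · exact Or.inr ⟨h3, hj.2⟩
    refine (Finset.card_le_card h1).trans ((Finset.card_insert_le _ _).trans ?_)
    rw [Finset.card_filter]
    refine Nat.add_le_add_right (le_of_eq ?_) 1
    refine Finset.sum_congr rfl fun j _ => ?_
    by_cases h : w (v.drop j) = 0 <;> simp [h]
  have hnc : n ≤ nc w (v.take i) (v.drop i) := by
    rw [nc_count i v hlen]
    omega
  have h1 : v.take i = v'.take i := by
    have := congrArg (List.take i) ht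
    rwa [List.take_take, List.take_take, Nat.min_eq_left hi.1.le] at this
  have h2 := hf (v.drop i) (v'.drop i) (v.take i) hi.2 (fun h => hi.2 ((hfl i hi.1).2 h)) hnc
  rwa [List.take_append_drop, h1, List.take_append_drop] at h2

theorem NN_eq (f : List α → ZMod p) : H366.NN f = N f := by
  funext X
  induction X with
  | nil => rfl
  | cons a X ih => rw [H366.NN_cons, N, ih]

theorem TL_eq (k G : List α → ZMod p) :
    Vale.Agent.P329.H817.TL k G = N fun X => k X * G X.tail := by
  funext X
  induction X with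
  | nil => rfl
  | cons a X ih => rw [Vale.Agent.P329.H817.TL, N, ih]; rfl

/-! ### the null splitting -/

theorem Bf_state {w u : List α → ZMod p} {ρ : ZMod p} : ∀ {X : List α}, N w X = ρ → Bf w u ρ X = 0
  | [], _ => rfl
  | a :: X, h => by
    rw [Bf]
    by_cases h1 : w (a :: X) = 0
    · rw [if_pos h1]
      rw [N, h1, add_zero] at h
      exact Bf_state h
    · rw [if_neg h1, if_pos h]

theorem null_identity {w u : List α → ZMod p} (ρ : ZMod p) (hu : ∀ X, w X = 0 → u X = 0)
    (v : List α) : u v * ((if N w v.tail = ρ then 1 else 0) - (if N w v = ρ then 1 else 0)) =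
      phi w u ρ v + Bf w u ρ v - Bf w u ρ v.tail := by
  cases v with
  | nil => rw [List.tail_nil, sub_self, mul_zero, phi, Bf, add_zero, sub_self]
  | cons a X =>
    rw [List.tail_cons, phi, rc, Bf]
    by_cases h1 : w (a :: X) = 0
    · simp [hu _ h1, h1]
    · by_cases h2 : N w (a :: X) = ρ
      · have h3 : N w X ≠ ρ := by
          intro h3
          apply h1
          have h4 : N w (a :: X) = N w X + w (a :: X) := rfl
          rw [h2, h3] at h4
          simpa using h4.symm
        simp [h1, h2, h3]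
      · by_cases h3 : N w X = ρ
        · have h4 : Bf w u ρ X = 0 := Bf_state h3
          simp [h1, h2, h3, h4]
        · simp [h1, h2, h3]

theorem Bf_window {w u : List α → ZMod p} {ρ : ZMod p} {v : List α} {i : ℕ}
    (hi : rc w ρ (v.drop i) ≠ 0) (hu : ∀ j ≤ i, u (v.drop j) = 0) :
    ∀ j ≤ i, Bf w u ρ (v.drop j) = 0 := by
  intro j hj
  induction h : i - j generalizing j with
  | zero =>
    have h1 : j = i := by omega
    subst h1
    by_cases h2 : N w (v.drop j) = ρ
    · exact Bf_state h2
    · exact (hi (if_neg h2)).elim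
  | succ k ih =>
    have h1 := ih (j + 1) (by omega) (by omega)
    have h2 := hu j hj
    rcases h3 : v.drop j with _ | ⟨a, X⟩
    · rfl
    · have h4 : v.drop (j + 1) = X := by
        rw [← List.tail_drop, h3]
        rfl
      rw [h3] at h2
      rw [h4] at h1
      rw [Bf, h1, h2]
      simp

theorem inv_zero_zmod : ((0 : ZMod p))⁻¹ = 0 := ZMod.inv_zero p

theorem rt_div {w g : List α → ZMod p} (hw : Rt w w) (hg : Mem w 1 g) :
    Rt w fun v => g v * (w v)⁻¹ := by
  intro c c' r hc hc' hr
  have h1 := hw c c' r hc hc' hr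
  show g (r ++ c) * (w (r ++ c))⁻¹ = g (r ++ c') * (w (r ++ c'))⁻¹
  rw [← h1]
  by_cases h2 : w (r ++ c) = 0
  · rw [h2, inv_zero_zmod, mul_zero, mul_zero]
  · rw [hg c c' r hc hc' ?_]
    cases r with
    | nil => exact (hr rfl).elim
    | cons a r =>
      rw [nc]
      rw [List.cons_append] at h2
      rw [if_neg h2]
      exact Nat.le_add_left _ _

/-! ### the system -/

open Classical in
/-- next code -/
noncomputable def nxt [Fact p.Prime] (hB1 : RowB1) (D : {w : List α → ZMod p // Stg w})
    (h : List α → ZMod p) (ρ : ZMod p) : {w : List α → ZMod p // Stg w} :=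
  if hU : Unt D.1 h then ⟨rc h ρ, hB1 α p D.1 h D.2 hU ρ⟩ else D

theorem nxt_eq [Fact p.Prime] (hB1 : RowB1) {D : {w : List α → ZMod p // Stg w}}
    {h : List α → ZMod p} (hU : Unt D.1 h) (ρ : ZMod p) : (nxt hB1 D h ρ).1 = rc h ρ := by
  rw [nxt, dif_pos hU]

/-- **the system of local functions** -/
noncomputable def sys [Finite α] [Fact p.Prime] (hA : RowA) (hB1 : RowB1) (hB2 : RowB2)
    (hB3 : RowB3) (hC : RowC) (hD1 : RowD1) (hD3 : RowD3) (hE : RowE) :
    H366.Sys α p (Cap (α := α) (p := p)) where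
  Code := {w : List α → ZMod p // Stg w}
  A D f := Lc D.1 f
  w D := D.1
  U D h := Unt D.1 h
  Mem D n g := Mem D.1 (n + 1) g ∧ Lc D.1 g ∧ ∀ v, g v ≠ 0 → D.1 v ≠ 0
  nx D h ρ := nxt hB1 D h ρ
  alg D :=
    { const := fun a => H483.Lc.const a
      bin := fun Φ f g hf hg => H483.Lc.comp (H483.Lc.prod hf hg) fun x => Φ x.1 x.2
      tail := fun f hf => H483.Lc.tail hf }
  letter D b := by
    classical
    have h := H483.Lc.comp (H483.Lc.take (w := D.1) 1)
      (fun Y : List α => if Y.head? = some b then (1 : ZMod p) else 0)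
    refine Eq.mp (congrArg (Lc D.1) ?_) h
    funext v
    cases v with
    | nil => simp
    | cons a X =>
      by_cases hab : a = b
      · simp [hab]
      · simp [hab]
  cap D f hf := hA α p D.1 D.2 f hf
  w_nil D := D.2.nil
  w_U D := (hC α p D.1).2.2.2.2.2.2.2.1 D.2
  U_A D h hU := (hC α p D.1).2.2.2.2.2.2.2.2.1 h hU
  U_cut D h hU v hv := hU.sup v hv
  Mem_A D n g hg := hg.2.1
  Mem_cut D n g hg := hg.2.2
  mem D f hf hs := by
    obtain ⟨n, hn⟩ := hf.2.2
    exact ⟨n, fun c c' S hc hc' h => hn c c' S hc hc' (by omega), hf, hs⟩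
  loc D f hf := by
    obtain ⟨n, hn⟩ := hf.2.2
    refine ⟨n + 1, fun J v v' ht hfl hc => loc_aux D.2.nil hn J v v' ht hfl ?_⟩
    exact hc
  nx_A D h ρ hU f hf := by
    rw [nxt_eq hB1 hU]
    exact hB2 α (ZMod p) p D.1 h D.2 hU ρ f hf
  nx_N D h ρ hU := by
    rw [nxt_eq hB1 hU, NN_eq]
    exact hB3 α p D.1 h D.2 hU ρ
  nx_w D h ρ hU v := by
    rw [nxt_eq hB1 hU, NN_eq, rc]
  arr D n g ρ hg := by
    obtain ⟨h1, h2, h3⟩ := hg
    have hU := (hC α p D.1).2.2.2.2.2.2.2.1 D.2
    rw [nxt_eq hB1 hU, NN_eq]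
    have h4 := hD1 α p D.1 D.2 (n + 1) g (by omega) h3 h1 ρ
    have e : (fun v => if N D.1 v = ρ then g v else 0) =
        fun v => open Classical in if N D.1 v = ρ then g v else 0 := by
      funext v
      by_cases h1 : N D.1 v = ρ
      · simp [h1]
      · simp [h1]
    refine ⟨?_, ?_, ?_⟩
    · exact Eq.mp (congrArg (Mem (rc D.1 ρ) (n + 1)) e) h4
    · have h5 := hB2 α (ZMod p) p D.1 D.1 D.2 hU ρ g h2
      have h6 := hB3 α p D.1 D.1 D.2 hU ρ
      exact Eq.mp (congrArg (Lc (rc D.1 ρ)) e) (H483.Lc.comp (H483.Lc.prod h6 h5)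
        fun x => if x.1 = ρ then x.2 else 0)
    · intro v hv
      by_cases h7 : N D.1 v = ρ
      · simp only [h7, if_true] at hv
        rw [rc, if_pos h7]
        exact h3 v hv
      · simp only [h7, if_false] at hv
        exact (hv rfl).elim
  null D g ρ hg := by
    obtain ⟨h1, h2, h3⟩ := hg
    have hU := (hC α p D.1).2.2.2.2.2.2.2.1 D.2
    rw [nxt_eq hB1 hU, NN_eq]
    have hu : Lc D.1 fun v => g v * (D.1 v)⁻¹ := H483.Lc.comp (H483.Lc.prod h2
      ((hC α p D.1).2.2.2.2.2.2.1 D.2))
      fun x => x.1 * x.2⁻¹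
    have hr : Rt D.1 fun v => g v * (D.1 v)⁻¹ := rt_div D.2.rt h1
    obtain ⟨h4, h5, h6⟩ := hD3 α p D.1 _ D.2 hu hr ρ
    refine ⟨phi D.1 (fun v => g v * (D.1 v)⁻¹) ρ, Bf D.1 (fun v => g v * (D.1 v)⁻¹) ρ, h5, ?_, ?_,
      h4, ?_, ?_⟩
    · intro v hv hrc
      apply hv
      cases v with
      | nil => rfl
      | cons a X => rw [phi, if_pos hrc]
    · have := h6 1
      simpa only [one_mul] using this
    · intro v
      have h7 := null_identity (w := D.1) (u := fun v => g v * (D.1 v)⁻¹) ρ (fun X hX => by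
        simp [hX]) v
      rw [← h7]
    · rintro v J ⟨i, hi1, hi2, hi3⟩ hJ
      have h7 := Bf_window (u := fun v => g v * (D.1 v)⁻¹) hi3 (fun j hj => by
        rw [hJ j (by omega), zero_mul]) 1 hi1
      rw [List.drop_one] at h7
      cases v with
      | nil => rfl
      | cons a X =>
        rw [List.tail_cons] at h7
        have h8 := hJ 0 (by omega)
        rw [List.drop_zero] at h8
        rw [phi, h7, h8]
        simp
  mark D k G J hk hG hJ := by
    obtain ⟨h1, h2⟩ := hE α p D.1 fun X => k X * G X.tail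
    have h3 : Lc D.1 fun X => k X * G X.tail :=
      H483.Lc.comp (H483.Lc.prod hk (H483.Lc.tail hG)) fun x => x.1 * x.2
    obtain ⟨h4, h5⟩ := h2 D.2 h3 ⟨J, fun X hX => hJ X fun h => hX (by rw [h, zero_mul])⟩
    refine ⟨rgg D.1 _, rgG D.1 _, h5, ?_, h4, ?_⟩
    · intro v hv h0
      apply hv
      cases v with
      | nil => rfl
      | cons a X => rw [rgg, if_pos h0]
    · funext v
      rw [TL_eq, NN_eq, h1]
  til D f hf := by
    refine ⟨tl D.1 f, lc_tl D.2 hf, fun v => ?_⟩
    cases v with
    | nil =>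
      have : D.1 [] = 0 := D.2.nil
      simp [tl, this]
    | cons a X =>
      by_cases h : D.1 (a :: X) = 0
      · simp [tl, h]
      · simp [tl, h]

end Vale.Agent.P329.H842
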